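import Vale.Agent.Lib.P254.Sym.AxisGen
import Vale.Agent.Lib.P254.Sym.Berwald3

/-!
# P254: generalized Orlicz balls

For convex nondecreasing `ψ_i` on `[0,∞)` with `ψ_i 0 = 0` the set
`K = {x ∈ ℝ^n | ∑ ψ_i |x_i| ≤ 1}`, when compact, satisfies `|K| ≥ 4^n ∏ b_i`
(`b_i` the mean of `|x_i|` over `K`), hence `det Σ_K / |K|² ≤ 8^(-n)`, which is below the
simplex value for `n ≥ 14`.  Here `n = m + 1`.
-/

open MeasureTheory Set

namespace Vale.Agent.Lib.P254.Orlicz

open Vale.Agent.Lib.P254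

variable {m : ℕ}

/-- The image of `K` under the exchange of the coordinates `0` and `i`. -/
def swapSet (K : Set (Fin (m+1) → ℝ)) (i : Fin (m+1)) : Set (Fin (m+1) → ℝ) :=
  (fun x : Fin (m+1) → ℝ => x ∘ (Equiv.swap 0 i)) '' K

/-- The box with half-sides `2 b i`. -/
def box (b : Fin (m+1) → ℝ) : Set (Fin (m+1) → ℝ) :=
  Icc (fun i => -(2 * b i)) (fun i => 2 * b i)

/-- The vector of the means of `|x_i|` over `K`. -/
noncomputable def bvec (K : Set (Fin (m+1) → ℝ)) : Fin (m+1) → ℝ :=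
  fun i => (vol K)⁻¹ * ∫ x in K, |x i|

/-- The generalized Orlicz ball of the functions `ψ_i`. -/
def orlSet (ψ : Fin (m+1) → ℝ → ℝ) : Set (Fin (m+1) → ℝ) :=
  {x | ∑ i, ψ i |x i| ≤ 1}

/-- The test function `1 - ∑ ψ_i |x_i|`. -/
def phi (ψ : Fin (m+1) → ℝ → ℝ) (x : Fin (m+1) → ℝ) : ℝ :=
  1 - ∑ i, ψ i |x i|

/-! ### FLIPADM : the section-volume function in the direction of a symmetric coordinate -/

/-- Sections at opposite heights coincide. -/
theorem flipadm_sec_neg {K : Set (Fin (m+1) → ℝ)}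
    (hflip : ∀ x ∈ K, Function.update x 0 (-(x 0)) ∈ K) (t : ℝ) :
    sec K (-t) = sec K t := by
  have key : ∀ s : ℝ, sec K s ⊆ sec K (-s) := by
    intro s y hy
    rw [mem_sec] at hy ⊢
    have h := hflip _ hy
    rw [Fin.cons_zero, Fin.update_cons_zero] at h
    exact h
  refine Set.Subset.antisymm ?_ (key t)
  have h := key (-t)
  rw [neg_neg] at h
  exact h

/-- Sections shrink as the height grows. -/
theorem flipadm_sec_anti {K : Set (Fin (m+1) → ℝ)} (hc : Convex ℝ K)
    (hflip : ∀ x ∈ K, Function.update x 0 (-(x 0)) ∈ K) {s t : ℝ} (hs : 0 ≤ s)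
    (hst : s ≤ t) : sec K t ⊆ sec K s := by
  intro y hy
  rcases (hs.trans hst).eq_or_lt with h0 | hpos
  · have hst' : s = t := by linarith
    rw [hst']
    exact hy
  have hy' : y ∈ sec K (-t) := by
    rw [flipadm_sec_neg hflip t]
    exact hy
  rw [mem_sec] at hy hy' ⊢
  have hsum : (s + t) / (2 * t) + (t - s) / (2 * t) = 1 := by
    field_simp
    ring
  have ha : 0 ≤ (s + t) / (2 * t) := by positivity
  have hb : 0 ≤ (t - s) / (2 * t) := div_nonneg (by linarith) (by positivity)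
  have h := hc hy hy' ha hb hsum
  have heq : (Fin.cons s y : Fin (m+1) → ℝ)
      = ((s + t) / (2 * t)) • (Fin.cons t y : Fin (m+1) → ℝ)
        + ((t - s) / (2 * t)) • (Fin.cons (-t) y : Fin (m+1) → ℝ) := by
    funext i
    refine Fin.cases ?_ ?_ i
    · simp only [Fin.cons_zero, Pi.add_apply, Pi.smul_apply, smul_eq_mul]
      field_simp
      ring
    · intro j
      simp only [Fin.cons_succ, Pi.add_apply, Pi.smul_apply, smul_eq_mul]
      rw [← add_mul, hsum, one_mul]
  rw [heq]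
  exact h

theorem flip_adm_vol_sec {K : Set (Fin (m+1) → ℝ)} (hK : IsCompact K) (hc : Convex ℝ K)
    (hflip : ∀ x ∈ K, Function.update x 0 (-(x 0)) ∈ K) :
    Adm (fun t => vol (sec K t)) := by
  refine ⟨measurable_vol_sec hK, fun t => ENNReal.toReal_nonneg, ?_, ?_, ?_, ?_⟩
  · intro t
    show vol (sec K (-t)) = vol (sec K t)
    rw [flipadm_sec_neg hflip]
  · intro s t hs hst
    exact ENNReal.toReal_mono (isCompact_sec hK s).measure_lt_top.ne
      (measure_mono (flipadm_sec_anti hc hflip hs hst))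
  · obtain ⟨R, hR⟩ := sec_eq_empty_of_compact hK
    refine ⟨R, fun t ht => ?_⟩
    show vol (sec K t) = 0
    rw [hR t ht]
    simp [vol]
  · intro x y r _ hxy hr
    exact sec_vol_four_point hK hc x y r hxy hr

/-! ### SWAP : exchanging the coordinates `0` and `i` -/

theorem swapSet_isCompact {K : Set (Fin (m+1) → ℝ)} (hK : IsCompact K) (i : Fin (m+1)) :
    IsCompact (swapSet K i) := by
  unfold swapSet
  exact hK.image (continuous_pi fun j => continuous_apply _)

theorem swapSet_convex {K : Set (Fin (m+1) → ℝ)} (hc : Convex ℝ K) (i : Fin (m+1)) :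
    Convex ℝ (swapSet K i) := by
  intro y hy y' hy' a b ha hb hab
  obtain ⟨x, hx, rfl⟩ := hy
  obtain ⟨x', hx', rfl⟩ := hy'
  exact ⟨a • x + b • x', hc hx hx' ha hb hab, rfl⟩

theorem swapSet_flip {K : Set (Fin (m+1) → ℝ)}
    (hflip : ∀ j : Fin (m+1), ∀ x ∈ K, Function.update x j (-(x j)) ∈ K) (i : Fin (m+1)) :
    ∀ y ∈ swapSet K i, Function.update y 0 (-(y 0)) ∈ swapSet K i := by
  intro y hy
  obtain ⟨x, hx, rfl⟩ := hy
  refine ⟨Function.update x (Equiv.swap 0 i 0) (-(x (Equiv.swap 0 i 0))),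
    hflip (Equiv.swap 0 i 0) x hx, ?_⟩
  funext j
  show Function.update x (Equiv.swap 0 i 0) (-(x (Equiv.swap 0 i 0))) (Equiv.swap 0 i j)
    = Function.update (x ∘ Equiv.swap 0 i) 0 (-((x ∘ Equiv.swap 0 i) 0)) j
  by_cases hj : j = 0
  · subst hj
    rw [Function.update_self, Function.update_self]
    rfl
  · have hne : Equiv.swap 0 i j ≠ Equiv.swap 0 i 0 :=
      fun h => hj ((Equiv.swap 0 i).injective h)
    rw [Function.update_of_ne hne, Function.update_of_ne hj]
    rfl

/-! ### SWAPINT : integrals of a function of the coordinate `i` -/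

theorem swapSet_integral (K : Set (Fin (m+1) → ℝ)) (i : Fin (m+1)) (F : ℝ → ℝ) :
    ∫ x in K, F (x i) = ∫ y in swapSet K i, F (y 0) := by
  have hmp : MeasurePreserving
      (MeasurableEquiv.piCongrLeft (fun _ : Fin (m+1) => ℝ)
        (Equiv.swap (0 : Fin (m+1)) i).symm) volume volume :=
    volume_measurePreserving_piCongrLeft (fun _ : Fin (m+1) => ℝ)
      (Equiv.swap (0 : Fin (m+1)) i).symm
  have hcoe : ∀ x : Fin (m+1) → ℝ,
      MeasurableEquiv.piCongrLeft (fun _ : Fin (m+1) => ℝ)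
        (Equiv.swap (0 : Fin (m+1)) i).symm x = x ∘ (Equiv.swap 0 i) := by
    intro x
    funext b
    have h := Equiv.piCongrLeft_apply_apply (fun _ : Fin (m+1) => ℝ)
      (Equiv.swap (0 : Fin (m+1)) i).symm x ((Equiv.swap 0 i) b)
    rw [Equiv.symm_apply_apply] at h
    exact h
  have hpre : (MeasurableEquiv.piCongrLeft (fun _ : Fin (m+1) => ℝ)
      (Equiv.swap (0 : Fin (m+1)) i).symm) ⁻¹' K = swapSet K i := by
    ext x
    rw [mem_preimage, hcoe]
    unfold swapSet
    constructor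
    · intro hx
      refine ⟨x ∘ (Equiv.swap 0 i), hx, ?_⟩
      funext b
      simp only [Function.comp_apply, Equiv.swap_apply_self]
    · rintro ⟨y, hy, rfl⟩
      have h3 : (y ∘ (Equiv.swap 0 i)) ∘ (Equiv.swap 0 i) = y := by
        funext b
        simp only [Function.comp_apply, Equiv.swap_apply_self]
      rw [h3]
      exact hy
  have key := hmp.setIntegral_preimage_emb
    (MeasurableEquiv.piCongrLeft (fun _ : Fin (m+1) => ℝ)
      (Equiv.swap (0 : Fin (m+1)) i).symm).measurableEmbedding (fun x => F (x i)) K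
  rw [hpre] at key
  rw [← key]
  congr 1
  funext y
  rw [hcoe]
  simp only [Function.comp_apply, Equiv.swap_apply_right]

/-! ### MARG : the marginal of the coordinate `i` -/

theorem marginal_exists {K : Set (Fin (m+1) → ℝ)} (hK : IsCompact K) (hc : Convex ℝ K)
    (hflip : ∀ j : Fin (m+1), ∀ x ∈ K, Function.update x j (-(x j)) ∈ K) (i : Fin (m+1)) :
    ∃ g : ℝ → ℝ, Adm g ∧
      ∀ F : ℝ → ℝ, Continuous F → ∫ x in K, F (x i) = ∫ t, F t * g t := by
  refine ⟨fun t => vol (sec (swapSet K i) t),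
    flip_adm_vol_sec (swapSet_isCompact hK i) (swapSet_convex hc i) (swapSet_flip hflip i), ?_⟩
  intro F hF
  rw [swapSet_integral K i F,
    integral_slice (swapSet_isCompact hK i) (fun x => F (x 0)) (by fun_prop)]
  congr 1
  ext t
  simp only [Fin.cons_zero]
  rw [setIntegral_const]
  simp [vol, Measure.real, mul_comm]

/-! ### MOM : second moment against first absolute moment, every coordinate -/

theorem flip_m2_le {K : Set (Fin (m+1) → ℝ)} (hK : IsCompact K) (hc : Convex ℝ K)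
    (hflip : ∀ j : Fin (m+1), ∀ x ∈ K, Function.update x j (-(x j)) ∈ K) (i : Fin (m+1)) :
    m2 K i * vol K ≤ 2 * (∫ x in K, |x i|) ^ 2 := by
  obtain ⟨g, hg, hF⟩ := marginal_exists hK hc hflip i
  have h2 : m2 K i = ∫ t, t ^ 2 * g t := by
    unfold m2
    exact hF (fun t => t ^ 2) (by fun_prop)
  have h0 : vol K = ∫ t, g t := by
    have h := hF (fun _ => (1:ℝ)) continuous_const
    simp only [one_mul] at h
    rw [← h, setIntegral_const]
    simp [vol, Measure.real]
  have h1 : ∫ x in K, |x i| = ∫ t, |t| * g t := hF (fun t => |t|) continuous_abs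
  rw [h2, h0, h1]
  exact adm_second_moment hg

/-! ### POS : the first absolute moments are positive -/

theorem abs_moment_pos {K : Set (Fin (m+1) → ℝ)} (hK : IsCompact K)
    (hi : (interior K).Nonempty) (i : Fin (m+1)) : 0 < ∫ x in K, |x i| := by
  have hint : IntegrableOn (fun x : Fin (m+1) → ℝ => |x i|) K :=
    (continuous_abs.comp (continuous_apply i)).continuousOn.integrableOn_compact hK
  have hnn : 0 ≤ᵐ[volume.restrict K] (fun x : Fin (m+1) → ℝ => |x i|) :=
    Filter.Eventually.of_forall (fun x => abs_nonneg (x i))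
  rw [setIntegral_pos_iff_support_of_nonneg_ae hnn hint]
  have hUo : IsOpen (interior K ∩ {x : Fin (m+1) → ℝ | x i ≠ 0}) :=
    isOpen_interior.inter (isOpen_ne_fun (continuous_apply i) continuous_const)
  have hUne : (interior K ∩ {x : Fin (m+1) → ℝ | x i ≠ 0}).Nonempty := by
    obtain ⟨x0, hx0⟩ := hi
    by_cases h0 : x0 i = 0
    · obtain ⟨ε, hε, hball⟩ := Metric.isOpen_iff.mp isOpen_interior x0 hx0
      refine ⟨Function.update x0 i (ε / 2), hball ?_, ?_⟩
      · rw [Metric.mem_ball, dist_pi_lt_iff hε]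
        intro j
        by_cases hj : j = i
        · subst hj
          rw [Function.update_self, h0, Real.dist_eq, sub_zero, abs_of_pos (by linarith)]
          linarith
        · rw [Function.update_of_ne hj, dist_self]
          exact hε
      · show Function.update x0 i (ε / 2) i ≠ 0
        rw [Function.update_self]
        exact (by linarith : (0:ℝ) < ε / 2).ne'
    · exact ⟨x0, hx0, h0⟩
  refine lt_of_lt_of_le (hUo.measure_pos volume hUne) (measure_mono ?_)
  rintro x ⟨hxK, hxi⟩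
  exact ⟨by simpa [Function.mem_support] using hxi, interior_subset hxK⟩

/-! ### LEMA : convex order against the uniform law with the same first absolute moment -/

theorem lema_split {g : ℝ → ℝ} (hg : Adm g) (φ : ℝ → ℝ) (hφ : Continuous φ) (c b : ℝ)
    (hb : 0 < b) :
    Integrable (fun t => φ t * (g t - c * (Ioc (-(2 * b)) (2 * b)).indicator
      (fun _ => (1 : ℝ)) t)) ∧
    ∫ t, φ t * (g t - c * (Ioc (-(2 * b)) (2 * b)).indicator (fun _ => (1 : ℝ)) t) =
      (∫ t, φ t * g t) - c * ∫ t in (-(2 * b))..(2 * b), φ t := by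
  obtain ⟨R, hR⟩ := hg.supp
  obtain ⟨C, hC⟩ := (isCompact_Icc (a := -R) (b := R)).exists_bound_of_continuousOn
    hφ.continuousOn
  have hφg : Integrable (fun t => φ t * g t) := by
    refine integrable_of_bdd_supp (hφ.measurable.mul hg.meas) (|C| * g 0) R (fun t => ?_)
      (fun t ht => ?_)
    · by_cases ht : R < |t|
      · rw [hR t ht]; simp; exact mul_nonneg (abs_nonneg _) (hg.nonneg 0)
      · push Not at ht
        rw [abs_mul, abs_of_nonneg (hg.nonneg t)]
        have h1 : |φ t| ≤ |C| := by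
          have := hC t ⟨by linarith [neg_abs_le t], by linarith [le_abs_self t]⟩
          rw [Real.norm_eq_abs] at this
          exact this.trans (le_abs_self C)
        exact mul_le_mul h1 (hg.le_zero t) (hg.nonneg t) (abs_nonneg _)
    · simp [hR t ht]
  have hφI : Integrable ((Ioc (-(2 * b)) (2 * b)).indicator φ) :=
    (hφ.integrableOn_Ioc).integrable_indicator measurableSet_Ioc
  have hfun : (fun t => φ t * (g t - c * (Ioc (-(2 * b)) (2 * b)).indicator
      (fun _ => (1 : ℝ)) t)) =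
      fun t => φ t * g t - c * (Ioc (-(2 * b)) (2 * b)).indicator φ t := by
    funext t
    by_cases ht : t ∈ Ioc (-(2 * b)) (2 * b)
    · rw [indicator_of_mem ht, indicator_of_mem ht]; ring
    · rw [indicator_of_notMem ht, indicator_of_notMem ht]; ring
  rw [hfun]
  refine ⟨hφg.sub (hφI.const_mul c), ?_⟩
  rw [integral_sub hφg (hφI.const_mul c), integral_const_mul,
    integral_indicator measurableSet_Ioc,
    ← intervalIntegral.integral_of_le (by linarith : -(2 * b) ≤ 2 * b)]

theorem lema_abs_int (b : ℝ) (hb : 0 < b) :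
    ∫ t in (-(2 * b))..(2 * b), |t| = 4 * b ^ 2 := by
  have h1 : ∫ t in (-(2 * b))..0, |t| = ∫ t in (-(2 * b))..0, -t :=
    intervalIntegral.integral_congr (fun t ht => by
      rw [uIcc_of_le (by linarith)] at ht
      exact abs_of_nonpos ht.2)
  have h2 : ∫ t in (0 : ℝ)..(2 * b), |t| = ∫ t in (0 : ℝ)..(2 * b), t :=
    intervalIntegral.integral_congr (fun t ht => by
      rw [uIcc_of_le (by linarith)] at ht
      exact abs_of_nonneg ht.1)
  rw [← intervalIntegral.integral_add_adjacent_intervals (a := -(2 * b)) (b := 0)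
    (c := 2 * b) (continuous_abs.intervalIntegrable _ _) (continuous_abs.intervalIntegrable _ _),
    h1, h2, intervalIntegral.integral_neg, integral_id]
  simp
  ring

theorem adm_convex_order {g : ℝ → ℝ} (hg : Adm g) (f : ℝ → ℝ) (hf : ConvexOn ℝ (Ici 0) f)
    (hfc : ContinuousOn f (Ici 0)) (b : ℝ) (hb : 0 < b)
    (hmom : ∫ t, |t| * g t = b * ∫ t, g t) :
    (∫ t, g t) * (∫ t in (-(2 * b))..(2 * b), f |t|) ≤ 4 * b * ∫ t, f |t| * g t := by
  set c : ℝ := (∫ t, g t) / (4 * b) with hc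
  set d : ℝ → ℝ := fun t => g t - c * (Ioc (-(2 * b)) (2 * b)).indicator
    (fun _ => (1 : ℝ)) t with hd
  have hfabs : Continuous (fun t : ℝ => f |t|) :=
    hfc.comp_continuous continuous_abs (fun t => abs_nonneg t)
  obtain ⟨i1, e1⟩ := lema_split hg (fun _ => (1 : ℝ)) continuous_const c b hb
  obtain ⟨i2, e2⟩ := lema_split hg (fun t => |t|) continuous_abs c b hb
  obtain ⟨i3, e3⟩ := lema_split hg (fun t => f |t|) hfabs c b hb
  have hcb : c * (4 * b) = ∫ t, g t := by rw [hc]; field_simp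
  have hI1 : ∫ _ in (-(2 * b))..(2 * b), (1 : ℝ) = 4 * b := by simp; ring
  have i1' : Integrable d := by simpa using i1
  have hd0 : ∫ t, d t = 0 := by
    have h := e1
    simp only [one_mul] at h
    rw [hd, h, hI1, hcb]; ring
  have hd1 : ∫ t, |t| * d t = 0 := by
    rw [hd, e2, lema_abs_int b hb, hmom, ← hcb]; ring
  have hgabs : ∀ t, g |t| = g t := fun t => by
    rcases abs_cases t with ⟨h, _⟩ | ⟨h, _⟩
    · rw [h]
    · rw [h, hg.even]
  have key : 0 ≤ ∫ t, f |t| * d t := by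
    by_cases hcase : ∀ s, 0 ≤ s → s < 2 * b → c ≤ g s
    · have hnn : 0 ≤ᵐ[volume] d := by
        filter_upwards [compl_mem_ae_iff.mpr (measure_singleton (2 * b))] with t h1
        show 0 ≤ g t - c * _
        by_cases ht : t ∈ Ioc (-(2 * b)) (2 * b)
        · rw [indicator_of_mem ht]
          have h2 : |t| < 2 * b := abs_lt.mpr ⟨ht.1, lt_of_le_of_ne ht.2 h1⟩
          have h3 := hcase |t| (abs_nonneg t) h2
          rw [hgabs] at h3
          linarith
        · rw [indicator_of_notMem ht]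
          have := hg.nonneg t
          linarith
      have hz : d =ᵐ[volume] 0 := (integral_eq_zero_iff_of_nonneg_ae hnn i1').mp hd0
      have h0 : ∫ t, f |t| * d t = 0 := by
        rw [integral_congr_ae (g := fun _ => (0 : ℝ))]
        · simp
        · filter_upwards [hz] with t ht
          rw [ht]; simp
      rw [h0]
    · push Not at hcase
      obtain ⟨s1, hs1, hs1b, hs1c⟩ := hcase
      set S : Set ℝ := {s | 0 ≤ s ∧ s ≤ 2 * b ∧ c ≤ g s} ∪ {0} with hS
      have hSne : S.Nonempty := ⟨0, Or.inr rfl⟩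
      have hSle : ∀ x ∈ S, x ≤ s1 := fun x hx => by
        rcases hx with ⟨hx0, hx2, hxc⟩ | hx
        · by_contra hlt
          push Not at hlt
          have := hg.anti s1 x hs1 hlt.le
          linarith
        · rw [mem_singleton_iff.mp hx]; exact hs1
      have hSb : BddAbove S := ⟨s1, hSle⟩
      set t0 : ℝ := sSup S with ht0d
      have ht0 : 0 ≤ t0 := le_csSup hSb (Or.inr rfl)
      have ht0b : t0 < 2 * b := lt_of_le_of_lt (csSup_le hSne hSle) hs1b
      have hlow : ∀ s, 0 ≤ s → s < t0 → c ≤ g s := fun s hs hst => by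
        obtain ⟨x, hx, hsx⟩ := exists_lt_of_lt_csSup hSne hst
        rcases hx with ⟨hx0, hx2, hxc⟩ | hx
        · exact hxc.trans (hg.anti s x hs hsx.le)
        · rw [mem_singleton_iff.mp hx] at hsx; linarith
      have hhigh : ∀ s, t0 < s → s ≤ 2 * b → g s ≤ c := fun s hs hsb => by
        by_contra hlt
        push Not at hlt
        have : s ≤ t0 := le_csSup hSb (Or.inl ⟨by linarith, hsb, hlt.le⟩)
        linarith
      set L : ℝ → ℝ := fun s => (2 * b - t0) * f s - (2 * b - s) * f t0 -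
        (s - t0) * f (2 * b) with hL
      have hm0 : t0 ∈ Ici (0 : ℝ) := ht0
      have hmb : 2 * b ∈ Ici (0 : ℝ) := mem_Ici.mpr (by linarith)
      have hL1 : ∀ s, 0 ≤ s → s ≤ t0 → 0 ≤ L s := fun s hs hst => by
        rcases eq_or_lt_of_le hst with h | h
        · rw [h]; simp only [hL]; ring_nf; exact le_rfl
        · have := hf.secant_mono_aux1 (x := s) (y := t0) (z := 2 * b) hs hmb h ht0b
          simp only [hL]; linarith
      have hL2 : ∀ s, t0 ≤ s → s ≤ 2 * b → L s ≤ 0 := fun s hst hsb => by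
        rcases eq_or_lt_of_le hst with h | h
        · rw [← h]; simp only [hL]; ring_nf; exact le_rfl
        · rcases eq_or_lt_of_le hsb with h' | h'
          · rw [h']; simp only [hL]; ring_nf; exact le_rfl
          · have := hf.secant_mono_aux1 (x := t0) (y := s) (z := 2 * b) hm0 hmb h h'
            simp only [hL]; linarith
      have hL3 : ∀ s, 2 * b ≤ s → 0 ≤ L s := fun s hsb => by
        rcases eq_or_lt_of_le hsb with h | h
        · rw [← h]; simp only [hL]; ring_nf; exact le_rfl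
        · have := hf.secant_mono_aux1 (x := t0) (y := 2 * b) (z := s) hm0
            (mem_Ici.mpr (by linarith)) ht0b h
          simp only [hL]; linarith
      have hpt : ∀ t, 0 ≤ L |t| * d t := fun t => by
        rcases lt_trichotomy |t| t0 with h | h | h
        · have hin : t ∈ Ioc (-(2 * b)) (2 * b) := by
            have := abs_lt.mp (h.trans ht0b)
            exact ⟨this.1, this.2.le⟩
          have hdt : 0 ≤ d t := by
            simp only [hd]
            rw [indicator_of_mem hin]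
            have := hlow |t| (abs_nonneg t) h
            rw [hgabs] at this
            linarith
          exact mul_nonneg (hL1 |t| (abs_nonneg t) h.le) hdt
        · have : L |t| = 0 := by rw [h]; simp only [hL]; ring
          rw [this, zero_mul]
        · rcases lt_trichotomy |t| (2 * b) with h2 | h2 | h2
          · have hin : t ∈ Ioc (-(2 * b)) (2 * b) := by
              have := abs_lt.mp h2
              exact ⟨this.1, this.2.le⟩
            have hdt : d t ≤ 0 := by
              simp only [hd]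
              rw [indicator_of_mem hin]
              have := hhigh |t| h h2.le
              rw [hgabs] at this
              linarith
            exact mul_nonneg_of_nonpos_of_nonpos (hL2 |t| h.le h2.le) hdt
          · have : L |t| = 0 := by rw [h2]; simp only [hL]; ring
            rw [this, zero_mul]
          · have hnin : t ∉ Ioc (-(2 * b)) (2 * b) := fun hin => by
              have : |t| ≤ 2 * b := abs_le.mpr ⟨hin.1.le, hin.2⟩
              linarith
            have hdt : 0 ≤ d t := by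
              simp only [hd]
              rw [indicator_of_notMem hnin]
              have := hg.nonneg t
              linarith
            exact mul_nonneg (hL3 |t| h2.le) hdt
      have hint : 0 ≤ ∫ t, L |t| * d t := integral_nonneg hpt
      have hexp : ∫ t, L |t| * d t = (2 * b - t0) * ∫ t, f |t| * d t := by
        have hfun : (fun t => L |t| * d t) = fun t => (2 * b - t0) * (f |t| * d t) -
            (2 * b * f t0 - t0 * f (2 * b)) * d t - (f (2 * b) - f t0) * (|t| * d t) := by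
          funext t; simp only [hL]; ring
        have i2' : Integrable (fun t => |t| * d t) := i2
        have i3' : Integrable (fun t => f |t| * d t) := i3
        have hA : Integrable (fun t => (2 * b - t0) * (f |t| * d t)) := i3'.const_mul _
        have hB : Integrable (fun t => (2 * b * f t0 - t0 * f (2 * b)) * d t) :=
          i1'.const_mul _
        have hC : Integrable (fun t => (f (2 * b) - f t0) * (|t| * d t)) := i2'.const_mul _
        have hAB : Integrable (fun t => (2 * b - t0) * (f |t| * d t) -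
            (2 * b * f t0 - t0 * f (2 * b)) * d t) := hA.sub hB
        rw [hfun, integral_sub hAB hC, integral_sub hA hB, integral_const_mul,
          integral_const_mul, integral_const_mul, hd0, hd1]
        ring
      rw [hexp] at hint
      exact (mul_nonneg_iff_of_pos_left (by linarith)).mp hint
  rw [hd, e3] at key
  rw [← hcb]
  nlinarith [mul_nonneg (by positivity : (0 : ℝ) ≤ 4 * b) key]

/-! ### BOX : the box and integrals of a function of one coordinate over it -/

theorem isCompact_box (b : Fin (m+1) → ℝ) : IsCompact (box b) := by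
  unfold box
  exact isCompact_Icc

theorem vol_box (b : Fin (m+1) → ℝ) (hb : ∀ i, 0 < b i) : vol (box b) = ∏ i, (4 * b i) := by
  unfold vol box
  rw [Real.volume_Icc_pi_toReal]
  · apply Finset.prod_congr rfl
    intro i _
    ring
  · intro i
    show -(2 * b i) ≤ 2 * b i
    linarith [hb i]

theorem box_integral (b : Fin (m+1) → ℝ) (hb : ∀ i, 0 < b i) (i : Fin (m+1)) (F : ℝ → ℝ)
    (hF : Continuous F) :
    4 * b i * ∫ x in box b, F (x i) = vol (box b) * ∫ t in (-(2 * b i))..(2 * b i), F t := by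
  classical
  have hle : ∀ j, -(2 * b j) ≤ 2 * b j := fun j => by linarith [hb j]
  obtain ⟨ν, hν⟩ : ∃ ν : Fin (m+1) → Measure ℝ,
      ν = fun j => (volume : Measure ℝ).restrict (Icc (-(2 * b j)) (2 * b j)) := ⟨_, rfl⟩
  have hνj : ∀ j, ν j = (volume : Measure ℝ).restrict (Icc (-(2 * b j)) (2 * b j)) := by
    intro j
    rw [hν]
  have hνfin : ∀ j, IsFiniteMeasure (ν j) := by
    intro j
    rw [hνj]
    infer_instance
  have hrestr : (volume : Measure (Fin (m+1) → ℝ)).restrict (box b) = Measure.pi ν := by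
    have hbox : box b = Set.pi Set.univ (fun j => Icc (-(2 * b j)) (2 * b j)) := by
      unfold box
      rw [Set.pi_univ_Icc]
    rw [hbox, volume_pi, Measure.restrict_pi_pi, hν]
  have hmap : (Measure.pi ν).map (Function.eval i)
      = (∏ j ∈ Finset.univ.erase i, ν j Set.univ) • ν i := Measure.pi_map_eval ν i
  have h1 : ∫ x in box b, F (x i) = ∫ t, F t ∂((Measure.pi ν).map (Function.eval i)) := by
    rw [hrestr]
    exact (integral_map (measurable_pi_apply i).aemeasurable hF.aestronglyMeasurable).symm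
  have hνuniv : ∀ j, ν j Set.univ = ENNReal.ofReal (4 * b j) := by
    intro j
    rw [hνj, Measure.restrict_apply_univ, Real.volume_Icc]
    congr 1
    ring
  have hc : (∏ j ∈ Finset.univ.erase i, ν j Set.univ).toReal
      = ∏ j ∈ Finset.univ.erase i, (4 * b j) := by
    rw [ENNReal.toReal_prod]
    apply Finset.prod_congr rfl
    intro j _
    rw [hνuniv, ENNReal.toReal_ofReal (by linarith [hb j])]
  have h2 : ∫ t, F t ∂(ν i) = ∫ t in (-(2 * b i))..(2 * b i), F t := by
    rw [hνj, integral_Icc_eq_integral_Ioc, intervalIntegral.integral_of_le (hle i)]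
  rw [h1, hmap, integral_smul_measure, hc, h2, vol_box b hb,
    ← Finset.mul_prod_erase Finset.univ (fun j => 4 * b j) (Finset.mem_univ i), smul_eq_mul]
  ring

/-! ### COORD : the mean of `f |x_i|` over `K` dominates the mean over the box -/

theorem orl_coord_le {K : Set (Fin (m+1) → ℝ)} (hK : IsCompact K) (hc : Convex ℝ K)
    (hflip : ∀ j : Fin (m+1), ∀ x ∈ K, Function.update x j (-(x j)) ∈ K)
    (hV : 0 < vol K) (hb : ∀ j, 0 < bvec K j) (i : Fin (m+1)) (f : ℝ → ℝ)
    (hf : ConvexOn ℝ (Ici 0) f) (hfc : ContinuousOn f (Ici 0)) :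
    vol K * ∫ x in box (bvec K), f |x i| ≤ vol (box (bvec K)) * ∫ x in K, f |x i| := by
  obtain ⟨g, hg, hF⟩ := marginal_exists hK hc hflip i
  have hFf : Continuous (fun t : ℝ => f |t|) :=
    hfc.comp_continuous continuous_abs (fun t => abs_nonneg t)
  -- (1) the volume is the integral of the marginal
  have h1 : vol K = ∫ t, g t := by
    have h := hF (fun _ => (1:ℝ)) continuous_const
    simp only [one_mul] at h
    rw [← h, setIntegral_const]
    simp [vol, Measure.real]
  -- (2) the first absolute moment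
  have h2 : ∫ x in K, |x i| = ∫ t, |t| * g t := hF (fun t => |t|) continuous_abs
  have hV' : vol K ≠ 0 := hV.ne'
  have hbi : bvec K i * vol K = ∫ x in K, |x i| := by
    unfold bvec
    field_simp
  have hmom : ∫ t, |t| * g t = bvec K i * ∫ t, g t := by
    rw [← h2, ← h1, hbi]
  -- (3) convex order
  have h3 := adm_convex_order hg f hf hfc (bvec K i) (hb i) hmom
  have h3' : ∫ t, f |t| * g t = ∫ x in K, f |x i| := (hF (fun t => f |t|) hFf).symm
  rw [h3', ← h1] at h3
  -- (4) the box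
  have h4 : 4 * bvec K i * ∫ x in box (bvec K), f |x i|
      = vol (box (bvec K)) * ∫ t in (-(2 * bvec K i))..(2 * bvec K i), f |t| :=
    box_integral (bvec K) hb i (fun t => f |t|) hFf
  have hQ : 0 ≤ vol (box (bvec K)) := ENNReal.toReal_nonneg
  have hpos : 0 < 4 * bvec K i := by
    have := hb i
    linarith
  have hkey : 4 * bvec K i * (vol K * ∫ x in box (bvec K), f |x i|)
      ≤ 4 * bvec K i * (vol (box (bvec K)) * ∫ x in K, f |x i|) := by
    have e1 : 4 * bvec K i * (vol K * ∫ x in box (bvec K), f |x i|)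
        = vol (box (bvec K)) * (vol K * ∫ t in (-(2 * bvec K i))..(2 * bvec K i), f |t|) := by
      calc 4 * bvec K i * (vol K * ∫ x in box (bvec K), f |x i|)
          = vol K * (4 * bvec K i * ∫ x in box (bvec K), f |x i|) := by ring
        _ = vol K * (vol (box (bvec K)) * ∫ t in (-(2 * bvec K i))..(2 * bvec K i), f |t|) := by
            rw [h4]
        _ = vol (box (bvec K)) * (vol K * ∫ t in (-(2 * bvec K i))..(2 * bvec K i), f |t|) := by
            ring
    rw [e1]
    have e2 := mul_le_mul_of_nonneg_left h3 hQ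
    calc vol (box (bvec K)) * (vol K * ∫ t in (-(2 * bvec K i))..(2 * bvec K i), f |t|)
        ≤ vol (box (bvec K)) * (4 * bvec K i * ∫ x in K, f |x i|) := e2
      _ = 4 * bvec K i * (vol (box (bvec K)) * ∫ x in K, f |x i|) := by ring
  exact le_of_mul_le_mul_left hkey hpos

/-! ### SET : the Orlicz ball is convex, sign-symmetric, with nonempty interior -/

theorem orlSet_convex (ψ : Fin (m+1) → ℝ → ℝ) (hconv : ∀ i, ConvexOn ℝ (Ici 0) (ψ i))
    (hmono : ∀ i, MonotoneOn (ψ i) (Ici 0)) : Convex ℝ (orlSet ψ) := by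
  intro x hx y hy a b ha hb hab
  have hx' : ∑ i, ψ i |x i| ≤ 1 := hx
  have hy' : ∑ i, ψ i |y i| ≤ 1 := hy
  change ∑ i, ψ i |(a • x + b • y) i| ≤ 1
  have hterm : ∀ i ∈ (Finset.univ : Finset (Fin (m+1))),
      ψ i |(a • x + b • y) i| ≤ a * ψ i |x i| + b * ψ i |y i| := by
    intro i _
    have habs : |(a • x + b • y) i| ≤ a * |x i| + b * |y i| := by
      have h1 : (a • x + b • y) i = a * x i + b * y i := by
        simp [Pi.add_apply, Pi.smul_apply, smul_eq_mul]
      rw [h1]
      calc |a * x i + b * y i| ≤ |a * x i| + |b * y i| := abs_add_le _ _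
        _ = a * |x i| + b * |y i| := by
          rw [abs_mul, abs_mul, abs_of_nonneg ha, abs_of_nonneg hb]
    have hnn : (0:ℝ) ≤ a * |x i| + b * |y i| := by positivity
    have h2 : ψ i |(a • x + b • y) i| ≤ ψ i (a * |x i| + b * |y i|) :=
      hmono i (mem_Ici.2 (abs_nonneg _)) (mem_Ici.2 hnn) habs
    have h3 : ψ i (a * |x i| + b * |y i|) ≤ a * ψ i |x i| + b * ψ i |y i| := by
      have := (hconv i).2 (mem_Ici.2 (abs_nonneg (x i))) (mem_Ici.2 (abs_nonneg (y i)))
        ha hb hab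
      simpa [smul_eq_mul] using this
    exact h2.trans h3
  calc ∑ i, ψ i |(a • x + b • y) i| ≤ ∑ i, (a * ψ i |x i| + b * ψ i |y i|) :=
        Finset.sum_le_sum hterm
    _ = a * ∑ i, ψ i |x i| + b * ∑ i, ψ i |y i| := by
        rw [Finset.sum_add_distrib, Finset.mul_sum, Finset.mul_sum]
    _ ≤ a * 1 + b * 1 :=
        add_le_add (mul_le_mul_of_nonneg_left hx' ha) (mul_le_mul_of_nonneg_left hy' hb)
    _ = 1 := by rw [mul_one, mul_one, hab]

theorem orlSet_flip (ψ : Fin (m+1) → ℝ → ℝ) :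
    ∀ j : Fin (m+1), ∀ x ∈ orlSet ψ, Function.update x j (-(x j)) ∈ orlSet ψ := by
  intro j x hx
  have hx' : ∑ i, ψ i |x i| ≤ 1 := hx
  change ∑ i, ψ i |Function.update x j (-(x j)) i| ≤ 1
  have heq : ∑ i, ψ i |Function.update x j (-(x j)) i| = ∑ i, ψ i |x i| := by
    refine Finset.sum_congr rfl ?_
    intro k _
    by_cases hk : k = j
    · subst hk
      rw [Function.update_self, abs_neg]
    · rw [Function.update_of_ne hk]
  rw [heq]
  exact hx'

theorem phi_continuous (ψ : Fin (m+1) → ℝ → ℝ) (hcont : ∀ i, ContinuousOn (ψ i) (Ici 0)) :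
    Continuous (phi ψ) := by
  have hterm : ∀ i : Fin (m+1), Continuous fun x : Fin (m+1) → ℝ => ψ i |x i| := by
    intro i
    exact (hcont i).comp_continuous (continuous_abs.comp (continuous_apply i))
      (fun x => mem_Ici.2 (abs_nonneg _))
  exact continuous_const.sub (continuous_finsetSum _ fun i _ => hterm i)

theorem orlSet_interior (ψ : Fin (m+1) → ℝ → ℝ) (hcont : ∀ i, ContinuousOn (ψ i) (Ici 0))
    (h0 : ∀ i, ψ i 0 = 0) : (interior (orlSet ψ)).Nonempty := by
  have hopen : IsOpen {x : Fin (m+1) → ℝ | 0 < phi ψ x} :=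
    isOpen_lt continuous_const (phi_continuous ψ hcont)
  have hsub : {x : Fin (m+1) → ℝ | 0 < phi ψ x} ⊆ orlSet ψ := by
    intro x hx
    have hx' : 0 < 1 - ∑ i, ψ i |x i| := hx
    change ∑ i, ψ i |x i| ≤ 1
    linarith
  have hzero : (0 : Fin (m+1) → ℝ) ∈ {x : Fin (m+1) → ℝ | 0 < phi ψ x} := by
    change 0 < 1 - ∑ i, ψ i |(0 : Fin (m+1) → ℝ) i|
    have hs : ∑ i, ψ i |(0 : Fin (m+1) → ℝ) i| = 0 := by
      refine Finset.sum_eq_zero ?_
      intro i _
      rw [Pi.zero_apply, abs_zero, h0 i]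
    rw [hs]
    norm_num
  exact ⟨0, interior_maximal hsub hopen hzero⟩

/-! ### PHI : integrals of the test function -/

theorem phi_nonneg_of_mem (ψ : Fin (m+1) → ℝ → ℝ) {x : Fin (m+1) → ℝ} (hx : x ∈ orlSet ψ) :
    0 ≤ phi ψ x := by
  have h : ∑ i, ψ i |x i| ≤ 1 := hx
  unfold phi
  linarith

theorem phi_K_pos (ψ : Fin (m+1) → ℝ → ℝ) (hcont : ∀ i, ContinuousOn (ψ i) (Ici 0))
    (h0 : ∀ i, ψ i 0 = 0) (hK : IsCompact (orlSet ψ)) :
    0 < ∫ x in orlSet ψ, phi ψ x := by
  have hc : Continuous (phi ψ) := phi_continuous ψ hcont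
  have hint : IntegrableOn (phi ψ) (orlSet ψ) volume := hc.continuousOn.integrableOn_compact hK
  have hnn : 0 ≤ᵐ[volume.restrict (orlSet ψ)] phi ψ :=
    ae_restrict_of_forall_mem hK.measurableSet (fun x hx => phi_nonneg_of_mem ψ hx)
  rw [setIntegral_pos_iff_support_of_nonneg_ae hnn hint]
  have hUo : IsOpen {x : Fin (m+1) → ℝ | 1 / 2 < phi ψ x} := isOpen_lt continuous_const hc
  have h0U : (0 : Fin (m+1) → ℝ) ∈ {x : Fin (m+1) → ℝ | 1 / 2 < phi ψ x} := by
    have e : phi ψ 0 = 1 := by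
      unfold phi
      simp [h0]
    change 1 / 2 < phi ψ 0
    rw [e]
    norm_num
  have hsub : {x : Fin (m+1) → ℝ | 1 / 2 < phi ψ x} ⊆ Function.support (phi ψ) ∩ orlSet ψ := by
    intro x hx
    have hx' : 1 / 2 < phi ψ x := hx
    refine ⟨?_, ?_⟩
    · rw [Function.mem_support]
      linarith
    · change ∑ i, ψ i |x i| ≤ 1
      unfold phi at hx'
      linarith
  exact lt_of_lt_of_le (hUo.measure_pos volume ⟨0, h0U⟩) (measure_mono hsub)

theorem phi_box_le (ψ : Fin (m+1) → ℝ → ℝ) (hcont : ∀ i, ContinuousOn (ψ i) (Ici 0))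
    (hK : IsCompact (orlSet ψ)) (b : Fin (m+1) → ℝ) :
    ∫ x in box b, phi ψ x ≤ ∫ x in orlSet ψ, phi ψ x := by
  have hc : Continuous (phi ψ) := phi_continuous ψ hcont
  have hintK : IntegrableOn (phi ψ) (orlSet ψ) volume := hc.continuousOn.integrableOn_compact hK
  have hintQ : IntegrableOn (phi ψ) (box b) volume :=
    hc.continuousOn.integrableOn_compact (isCompact_box b)
  have hnn : 0 ≤ᵐ[volume.restrict (orlSet ψ)] phi ψ :=
    ae_restrict_of_forall_mem hK.measurableSet (fun x hx => phi_nonneg_of_mem ψ hx)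
  have hle : phi ψ ≤ (orlSet ψ).indicator (phi ψ) := by
    intro x
    by_cases hx : x ∈ orlSet ψ
    · rw [indicator_of_mem hx]
    · rw [indicator_of_notMem hx]
      have hx' : ¬ (∑ i, ψ i |x i| ≤ 1) := hx
      unfold phi
      linarith [not_le.mp hx']
  calc ∫ x in box b, phi ψ x
      ≤ ∫ x in box b, (orlSet ψ).indicator (phi ψ) x :=
        setIntegral_mono hintQ (hintQ.indicator hK.measurableSet) hle
    _ = ∫ x in box b ∩ orlSet ψ, phi ψ x := setIntegral_indicator hK.measurableSet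
    _ ≤ ∫ x in orlSet ψ, phi ψ x :=
        setIntegral_mono_set hintK hnn (inter_subset_right.eventuallyLE)

/-! ### AVG : the mean of the test function over `K` is at most its mean over the box -/

theorem avg_phi_integral (ψ : Fin (m+1) → ℝ → ℝ) (hcont : ∀ i, ContinuousOn (ψ i) (Ici 0))
    (S : Set (Fin (m+1) → ℝ)) (hS : IsCompact S) :
    ∫ x in S, phi ψ x = vol S - ∑ i, ∫ x in S, ψ i |x i| := by
  have hci : ∀ i, Continuous (fun x : Fin (m+1) → ℝ => ψ i |x i|) := fun i =>
    (hcont i).comp_continuous (continuous_abs.comp (continuous_apply i))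
      (fun x => Set.mem_Ici.mpr (abs_nonneg _))
  have hint : ∀ i ∈ (Finset.univ : Finset (Fin (m+1))),
      Integrable (fun x : Fin (m+1) → ℝ => ψ i |x i|) (volume.restrict S) := fun i _ =>
    (hci i).continuousOn.integrableOn_compact hS
  have hone : Integrable (fun _ : Fin (m+1) → ℝ => (1:ℝ)) (volume.restrict S) :=
    continuousOn_const.integrableOn_compact hS
  have hsum : Integrable (fun x : Fin (m+1) → ℝ => ∑ i, ψ i |x i|) (volume.restrict S) :=
    integrable_finsetSum _ hint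
  have e1 : ∫ x in S, phi ψ x
      = (∫ _x in S, (1:ℝ)) - ∫ x in S, ∑ i, ψ i |x i| := by
    unfold phi
    exact integral_sub hone hsum
  have e2 : (∫ _x in S, (1:ℝ)) = vol S := by
    rw [setIntegral_const]
    unfold vol
    simp [Measure.real]
  have e3 : ∫ x in S, ∑ i, ψ i |x i| = ∑ i, ∫ x in S, ψ i |x i| :=
    integral_finsetSum _ hint
  rw [e1, e2, e3]

theorem phi_avg_le (ψ : Fin (m+1) → ℝ → ℝ) (hconv : ∀ i, ConvexOn ℝ (Ici 0) (ψ i))
    (hmono : ∀ i, MonotoneOn (ψ i) (Ici 0)) (hcont : ∀ i, ContinuousOn (ψ i) (Ici 0))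
    (hK : IsCompact (orlSet ψ)) (hV : 0 < vol (orlSet ψ))
    (hb : ∀ j, 0 < bvec (orlSet ψ) j) :
    vol (box (bvec (orlSet ψ))) * ∫ x in orlSet ψ, phi ψ x ≤
      vol (orlSet ψ) * ∫ x in box (bvec (orlSet ψ)), phi ψ x := by
  rw [avg_phi_integral ψ hcont (orlSet ψ) hK,
    avg_phi_integral ψ hcont (box (bvec (orlSet ψ))) (isCompact_box _)]
  have hi : ∀ i : Fin (m+1),
      vol (orlSet ψ) * ∫ x in box (bvec (orlSet ψ)), ψ i |x i| ≤
        vol (box (bvec (orlSet ψ))) * ∫ x in orlSet ψ, ψ i |x i| := fun i =>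
    orl_coord_le hK (orlSet_convex ψ hconv hmono) (orlSet_flip ψ) hV hb i (ψ i) (hconv i)
      (hcont i)
  have hs : vol (orlSet ψ) * ∑ i, ∫ x in box (bvec (orlSet ψ)), ψ i |x i| ≤
      vol (box (bvec (orlSet ψ))) * ∑ i, ∫ x in orlSet ψ, ψ i |x i| := by
    rw [Finset.mul_sum, Finset.mul_sum]
    exact Finset.sum_le_sum (fun i _ => hi i)
  rw [mul_sub, mul_sub]
  linarith [mul_comm (vol (orlSet ψ)) (vol (box (bvec (orlSet ψ))))]

/-! ### VOL : the volume bound `4^n ∏ b_i ≤ |K|` -/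

theorem orl_vol_ge (ψ : Fin (m+1) → ℝ → ℝ) (hconv : ∀ i, ConvexOn ℝ (Ici 0) (ψ i))
    (hmono : ∀ i, MonotoneOn (ψ i) (Ici 0)) (hcont : ∀ i, ContinuousOn (ψ i) (Ici 0))
    (h0 : ∀ i, ψ i 0 = 0) (hK : IsCompact (orlSet ψ)) :
    ∏ i, (4 * bvec (orlSet ψ) i) ≤ vol (orlSet ψ) := by
  have hint : (interior (orlSet ψ)).Nonempty := orlSet_interior ψ hcont h0
  have hV : 0 < vol (orlSet ψ) := vol_pos_of_interior hK hint
  have hb : ∀ j, 0 < bvec (orlSet ψ) j := fun j =>
    mul_pos (inv_pos.mpr hV) (abs_moment_pos hK hint j)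
  have hA : 0 < ∫ x in orlSet ψ, phi ψ x := phi_K_pos ψ hcont h0 hK
  have hBA : ∫ x in box (bvec (orlSet ψ)), phi ψ x ≤ ∫ x in orlSet ψ, phi ψ x :=
    phi_box_le ψ hcont hK (bvec (orlSet ψ))
  have havg := phi_avg_le ψ hconv hmono hcont hK hV hb
  have h1 : vol (box (bvec (orlSet ψ))) * ∫ x in orlSet ψ, phi ψ x ≤
      vol (orlSet ψ) * ∫ x in orlSet ψ, phi ψ x :=
    le_trans havg (mul_le_mul_of_nonneg_left hBA hV.le)
  have h2 : vol (box (bvec (orlSet ψ))) ≤ vol (orlSet ψ) := le_of_mul_le_mul_right h1 hA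
  rw [vol_box (bvec (orlSet ψ)) hb] at h2
  exact h2

/-! ### RATIO : from the volume bound to the covariance determinant -/

theorem orl_ratio_le {K : Set (Fin (m+1) → ℝ)} (hK : IsCompact K) (hc : Convex ℝ K)
    (hflip : ∀ j : Fin (m+1), ∀ x ∈ K, Function.update x j (-(x j)) ∈ K)
    (hV : 0 < vol K) (hvol : ∏ i, (4 * bvec K i) ≤ vol K) :
    (covMatrix K).det / (vol K) ^ 2 ≤ 1 / 8 ^ (m + 1) ∧
      0 ≤ (covMatrix K).det / (vol K) ^ 2 := by
  have hdet : (covMatrix K).det = ∏ i, ((vol K)⁻¹ * m2 K i) := by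
    rw [covMatrix_of_flip hflip, Matrix.det_diagonal]
  have hVi : 0 < (vol K)⁻¹ := inv_pos.mpr hV
  have hc0 : ∀ i, 0 ≤ (vol K)⁻¹ * m2 K i := by
    intro i
    refine mul_nonneg hVi.le ?_
    unfold m2
    exact integral_nonneg (fun x => sq_nonneg _)
  have hI0 : ∀ i, 0 ≤ ∫ x in K, |x i| := fun i => integral_nonneg (fun x => abs_nonneg _)
  have hbv : ∀ i, bvec K i = (vol K)⁻¹ * ∫ x in K, |x i| := fun i => rfl
  have hb0 : ∀ i, 0 ≤ bvec K i := by
    intro i
    rw [hbv]
    exact mul_nonneg hVi.le (hI0 i)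
  have hcb : ∀ i, (vol K)⁻¹ * m2 K i ≤ 2 * (bvec K i) ^ 2 := by
    intro i
    have h := flip_m2_le hK hc hflip i
    rw [hbv]
    have e1 : (vol K)⁻¹ * m2 K i = (vol K)⁻¹ * (vol K)⁻¹ * (m2 K i * vol K) := by
      have e0 : (vol K)⁻¹ * (vol K)⁻¹ * (m2 K i * vol K)
          = (vol K)⁻¹ * m2 K i * ((vol K)⁻¹ * vol K) := by ring
      rw [e0, inv_mul_cancel₀ hV.ne', mul_one]
    have e2 : 2 * ((vol K)⁻¹ * ∫ x in K, |x i|) ^ 2
        = (vol K)⁻¹ * (vol K)⁻¹ * (2 * (∫ x in K, |x i|) ^ 2) := by ring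
    rw [e1, e2]
    exact mul_le_mul_of_nonneg_left h (mul_nonneg hVi.le hVi.le)
  have hprod : (covMatrix K).det ≤ 2 ^ (m + 1) * (∏ i, bvec K i) ^ 2 := by
    rw [hdet]
    calc ∏ i, ((vol K)⁻¹ * m2 K i) ≤ ∏ i, (2 * (bvec K i) ^ 2) :=
          Finset.prod_le_prod (fun i _ => hc0 i) (fun i _ => hcb i)
      _ = 2 ^ (m + 1) * (∏ i, bvec K i) ^ 2 := by
          rw [Finset.prod_mul_distrib, Finset.prod_pow, Finset.prod_const, Finset.card_univ,
            Fintype.card_fin]
  have hP0 : 0 ≤ ∏ i, bvec K i := Finset.prod_nonneg (fun i _ => hb0 i)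
  have hP : 4 ^ (m + 1) * ∏ i, bvec K i ≤ vol K := by
    rw [Finset.prod_mul_distrib, Finset.prod_const, Finset.card_univ, Fintype.card_fin] at hvol
    exact hvol
  have hdet0 : 0 ≤ (covMatrix K).det := by
    rw [hdet]
    exact Finset.prod_nonneg (fun i _ => hc0 i)
  have hV2 : 0 < (vol K) ^ 2 := by positivity
  refine ⟨?_, div_nonneg hdet0 hV2.le⟩
  rw [div_le_iff₀ hV2]
  have h4 : (4 ^ (m + 1) * ∏ i, bvec K i) ^ 2 ≤ (vol K) ^ 2 :=
    pow_le_pow_left₀ (mul_nonneg (by positivity) hP0) hP 2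
  have h8 : (0 : ℝ) < 8 ^ (m + 1) := by positivity
  have e16 : ((4 : ℝ) ^ (m + 1)) ^ 2 = 2 ^ (m + 1) * 8 ^ (m + 1) := by
    rw [← pow_mul, ← mul_pow, mul_comm (m + 1) 2, pow_mul]
    norm_num
  rw [one_div, inv_mul_eq_div, le_div_iff₀ h8]
  calc (covMatrix K).det * 8 ^ (m + 1)
      ≤ 2 ^ (m + 1) * (∏ i, bvec K i) ^ 2 * 8 ^ (m + 1) :=
        mul_le_mul_of_nonneg_right hprod h8.le
    _ = (4 ^ (m + 1) * ∏ i, bvec K i) ^ 2 := by
        rw [mul_pow, e16]
        ring
    _ ≤ (vol K) ^ 2 := h4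

/-! ### NUM : the bound is below the simplex value from dimension 14 on -/

lemma num_key_nat_small (n : ℕ) (h3 : 3 ≤ n) (h23 : n ≤ 23) :
    (n + 2) ^ 2 * (n + 3) ^ (n + 1) ≤ 8 * (n + 1) ^ (n + 3) := by
  interval_cases n <;> norm_num

lemma num_exp_two_lt : Real.exp 2 < 7.3891 := by
  have h1 : Real.exp 1 < 2.7182818286 := Real.exp_one_lt_d9
  have h2 : Real.exp 2 = Real.exp 1 ^ 2 := by
    rw [← Real.exp_nat_mul]; norm_num
  rw [h2]
  have h0 : 0 < Real.exp 1 := Real.exp_pos 1
  nlinarith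

lemma num_key_real (n : ℕ) (h3 : 3 ≤ n) :
    ((n : ℝ) + 2) ^ 2 * ((n : ℝ) + 3) ^ (n + 1) ≤ 8 * ((n : ℝ) + 1) ^ (n + 3) := by
  by_cases h : n ≤ 23
  · have := num_key_nat_small n h3 h
    exact_mod_cast this
  · push Not at h
    have hn : (24 : ℝ) ≤ n := by exact_mod_cast h
    have hpos : (0 : ℝ) < (n : ℝ) + 1 := by positivity
    have h1 : ((n : ℝ) + 3) ^ (n + 1) ≤ ((n : ℝ) + 1) ^ (n + 1) * Real.exp 2 := by
      have hle : (n : ℝ) + 3 ≤ ((n : ℝ) + 1) * Real.exp (2 / ((n : ℝ) + 1)) := by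
        have hexp := Real.add_one_le_exp (2 / ((n : ℝ) + 1))
        have h' : ((n : ℝ) + 1) * (2 / ((n : ℝ) + 1) + 1) = (n : ℝ) + 3 := by
          field_simp; ring
        calc (n : ℝ) + 3 = ((n : ℝ) + 1) * (2 / ((n : ℝ) + 1) + 1) := h'.symm
          _ ≤ _ := by gcongr
      calc ((n : ℝ) + 3) ^ (n + 1)
          ≤ (((n : ℝ) + 1) * Real.exp (2 / ((n : ℝ) + 1))) ^ (n + 1) := by gcongr
        _ = ((n : ℝ) + 1) ^ (n + 1) * Real.exp 2 := by
            rw [mul_pow, ← Real.exp_nat_mul]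
            congr 2
            push_cast
            field_simp
    have h2 : ((n : ℝ) + 2) ^ 2 ≤ (26 / 25) ^ 2 * ((n : ℝ) + 1) ^ 2 := by
      rw [← mul_pow]
      gcongr
      linarith
    have h4 := num_exp_two_lt
    calc ((n : ℝ) + 2) ^ 2 * ((n : ℝ) + 3) ^ (n + 1)
        ≤ ((26 / 25) ^ 2 * ((n : ℝ) + 1) ^ 2) * (((n : ℝ) + 1) ^ (n + 1) * Real.exp 2) := by
          gcongr
      _ = ((26 / 25) ^ 2 * Real.exp 2) * ((n : ℝ) + 1) ^ (n + 3) := by ring
      _ ≤ 8 * ((n : ℝ) + 1) ^ (n + 3) := by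
          gcongr
          nlinarith

lemma num_simplexRatio_step (n : ℕ) (h3 : 3 ≤ n) :
    simplexRatio n / 8 ≤ simplexRatio (n + 1) := by
  have key := num_key_real n h3
  have hF : (0 : ℝ) < (n.factorial : ℝ) := by exact_mod_cast n.factorial_pos
  have hL : simplexRatio n / 8
      = (n.factorial : ℝ) ^ 2 / (8 * ((n : ℝ) + 1) ^ (n + 1) * ((n : ℝ) + 2) ^ n) := by
    unfold simplexRatio
    rw [one_div, inv_pow, mul_pow]
    field_simp
    ring
  have hR : simplexRatio (n + 1)
      = ((n : ℝ) + 1) ^ 2 * (n.factorial : ℝ) ^ 2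
        / (((n : ℝ) + 2) ^ (n + 2) * ((n : ℝ) + 3) ^ (n + 1)) := by
    unfold simplexRatio
    rw [one_div, inv_pow, mul_pow, Nat.factorial_succ]
    push_cast
    have e1 : (n : ℝ) + 1 + 1 = (n : ℝ) + 2 := by ring
    have e2 : (n : ℝ) + 1 + 2 = (n : ℝ) + 3 := by ring
    rw [e1, e2]
    field_simp
    ring
  rw [hL, hR, div_le_div_iff₀ (by positivity) (by positivity)]
  calc (n.factorial : ℝ) ^ 2 * (((n : ℝ) + 2) ^ (n + 2) * ((n : ℝ) + 3) ^ (n + 1))
      = ((n.factorial : ℝ) ^ 2 * ((n : ℝ) + 2) ^ n)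
          * (((n : ℝ) + 2) ^ 2 * ((n : ℝ) + 3) ^ (n + 1)) := by ring
    _ ≤ ((n.factorial : ℝ) ^ 2 * ((n : ℝ) + 2) ^ n) * (8 * ((n : ℝ) + 1) ^ (n + 3)) := by
        gcongr
    _ = ((n : ℝ) + 1) ^ 2 * (n.factorial : ℝ) ^ 2
          * (8 * ((n : ℝ) + 1) ^ (n + 1) * ((n : ℝ) + 2) ^ n) := by ring

theorem orl_numeric (n : ℕ) (hn : 14 ≤ n) : (1 : ℝ) / 8 ^ n < simplexRatio n := by
  induction n, hn using Nat.le_induction with
  | base => norm_num [simplexRatio, Nat.factorial]
  | succ k hk ih =>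
    have hs := num_simplexRatio_step k (by omega)
    calc (1 : ℝ) / 8 ^ (k + 1) = (1 / 8 ^ k) / 8 := by
          rw [pow_succ]
          field_simp
      _ < simplexRatio k / 8 := by gcongr
      _ ≤ simplexRatio (k + 1) := hs

/-! ### MAIN : generalized Orlicz balls -/

theorem orlicz_main {n : ℕ} (hn : 1 ≤ n) (ψ : Fin n → ℝ → ℝ)
    (hconv : ∀ i, ConvexOn ℝ (Ici 0) (ψ i)) (hmono : ∀ i, MonotoneOn (ψ i) (Ici 0))
    (hcont : ∀ i, ContinuousOn (ψ i) (Ici 0)) (h0 : ∀ i, ψ i 0 = 0)
    (hK : IsCompact {x : Fin n → ℝ | ∑ i, ψ i |x i| ≤ 1}) :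
    Convex ℝ {x : Fin n → ℝ | ∑ i, ψ i |x i| ≤ 1} ∧
      (interior {x : Fin n → ℝ | ∑ i, ψ i |x i| ≤ 1}).Nonempty ∧
      (covMatrix {x : Fin n → ℝ | ∑ i, ψ i |x i| ≤ 1}).det /
        (vol {x : Fin n → ℝ | ∑ i, ψ i |x i| ≤ 1}) ^ 2 ≤ 1 / 8 ^ n ∧
      (14 ≤ n → ∀ T : Fin (n+1) → Fin n → ℝ, AffineIndependent ℝ T →
        isotropicConstant {x : Fin n → ℝ | ∑ i, ψ i |x i| ≤ 1} <
          isotropicConstant (convexHull ℝ (Set.range T))) := by
  obtain ⟨m, rfl⟩ : ∃ m, n = m + 1 := ⟨n - 1, by omega⟩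
  have hK' : IsCompact (orlSet ψ) := hK
  have hconvK : Convex ℝ (orlSet ψ) := orlSet_convex ψ hconv hmono
  have hint : (interior (orlSet ψ)).Nonempty := orlSet_interior ψ hcont h0
  have hV : 0 < vol (orlSet ψ) := vol_pos_of_interior hK' hint
  have hvol := orl_vol_ge ψ hconv hmono hcont h0 hK'
  obtain ⟨h1, h0'⟩ := orl_ratio_le hK' hconvK (orlSet_flip ψ) hV hvol
  refine ⟨hconvK, hint, h1, ?_⟩
  intro h14 T hT
  have hlt : (covMatrix (orlSet ψ)).det / (vol (orlSet ψ)) ^ 2 < simplexRatio (m + 1) :=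
    lt_of_le_of_lt h1 (orl_numeric (m + 1) h14)
  show isotropicConstant (orlSet ψ) < isotropicConstant (convexHull ℝ (Set.range T))
  unfold isotropicConstant
  rw [ratio_general_simplex T hT]
  have hpos : (0:ℝ) < 1 / (2 * ((m + 1 : ℕ) : ℝ)) := by positivity
  exact Real.rpow_lt_rpow h0' hlt hpos

end Vale.Agent.Lib.P254.Orlicz
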